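import Crest.Agent.S0110Aux.Example

/-!
# S0110 helper: the three-atom example, part 2 (weights, reflection, coupling, estimates)
-/

set_option autoImplicit false
open MeasureTheory
open scoped ENNReal NNReal
open Crest.AnalysisR.OT

namespace Crest.Agent.S0110Aux

variable {d : ℕ}

local notation "E" => EuclideanSpace ℝ (Fin d)
local notation "ρ" => uniformProbOn (cube d)

theorem mul_le_abs_of_mem_cube (h : ℝ) (x : E) (hx : ∀ i, |x i| ≤ 1) (i : Fin d) :
    h * x i ≤ |h| := by
  calc h * x i ≤ |h * x i| := le_abs_self _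
    _ = |h| * |x i| := abs_mul _ _
    _ ≤ |h| * 1 := by gcongr; exact hx i
    _ = |h| := mul_one _

theorem weight_pos (i0 i1 : Fin d) (hne : i0 ≠ i1) (h : ℝ) (hh0 : h ≠ 0) (hh : |h| ≤ 1 / 4)
    (j : Fin 3) : 0 < ρ (idx i0 i1 h ⁻¹' {j}) := by
  fin_cases j
  · have hsub : box2 i0 i1 (-1) (-1 / 2) (-1) 1 ⊆ idx i0 i1 h ⁻¹' {0} := by
      rintro x ⟨hK, h1, h2, h3, h4⟩
      have h5 := mul_le_abs_of_mem_cube h x hK i1
      have h6 : x i0 < 0 := by linarith
      have h7 : ¬ (|x i0| ≤ h * x i1) := by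
        rw [abs_of_neg h6]; intro h8; linarith
      simp [idx, h7, h6]
    refine lt_of_lt_of_le ?_ (measure_mono hsub)
    rw [rho_box2 i0 i1 hne _ _ _ _ (by norm_num) (by norm_num) (by norm_num) (by norm_num)
      (by norm_num) (by norm_num)]
    norm_num
  · rcases lt_or_gt_of_ne hh0 with hneg | hpos
    · have habs : |h| = -h := abs_of_neg hneg
      have hsub : box2 i0 i1 (h / 4) (-h / 4) (-1) (-1 / 2) ⊆ idx i0 i1 h ⁻¹' {1} := by
        rintro x ⟨hK, h1, h2, h3, h4⟩
        have h7 : |x i0| ≤ h * x i1 := by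
          rw [abs_le]; constructor <;> nlinarith
        simp [idx, h7]
      refine lt_of_lt_of_le ?_ (measure_mono hsub)
      rw [rho_box2 i0 i1 hne _ _ _ _ (by linarith) (by linarith) (by linarith) (by norm_num)
        (by norm_num) (by norm_num)]
      rw [ENNReal.ofReal_pos]
      have : 0 < -h := by linarith
      nlinarith
    · have habs : |h| = h := abs_of_pos hpos
      have hsub : box2 i0 i1 (-h / 4) (h / 4) (1 / 2) 1 ⊆ idx i0 i1 h ⁻¹' {1} := by
        rintro x ⟨hK, h1, h2, h3, h4⟩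
        have h7 : |x i0| ≤ h * x i1 := by
          rw [abs_le]; constructor <;> nlinarith
        simp [idx, h7]
      refine lt_of_lt_of_le ?_ (measure_mono hsub)
      rw [rho_box2 i0 i1 hne _ _ _ _ (by linarith) (by linarith) (by linarith) (by norm_num)
        (by norm_num) (by norm_num)]
      rw [ENNReal.ofReal_pos]
      nlinarith
  · have hsub : box2 i0 i1 (1 / 2) 1 (-1) 1 ⊆ idx i0 i1 h ⁻¹' {2} := by
      rintro x ⟨hK, h1, h2, h3, h4⟩
      have h5 := mul_le_abs_of_mem_cube h x hK i1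
      have h6 : ¬ (x i0 < 0) := by rw [not_lt]; linarith
      have h7 : ¬ (|x i0| ≤ h * x i1) := by
        rw [abs_of_nonneg (not_lt.1 h6)]; intro h8; linarith
      simp [idx, h7, h6]
    refine lt_of_lt_of_le ?_ (measure_mono hsub)
    rw [rho_box2 i0 i1 hne _ _ _ _ (by norm_num) (by norm_num) (by norm_num) (by norm_num)
      (by norm_num) (by norm_num)]
    norm_num

theorem isThreeAtomic_map (i0 i1 : Fin d) (hne : i0 ≠ i1) (h : ℝ) (hh0 : h ≠ 0)
    (hh : |h| ≤ 1 / 4) : IsThreeAtomic ((ρ).map (T0 i0 i1 h)) := by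
  refine ⟨atom i0 i1 h, atom_injective i0 i1 hne h,
    fun j => (ρ (idx i0 i1 h ⁻¹' {j})).toReal, ?_, map_T0_eq i0 i1 h⟩
  intro j
  exact ENNReal.toReal_pos (weight_pos i0 i1 hne h hh0 hh j).ne' (measure_ne_top _ _)

theorem idx_neg (i0 i1 : Fin d) (hne : i0 ≠ i1) (h : ℝ) (x : E) :
    idx i0 i1 (-h) x = idx i0 i1 h (refl i1 x) := by
  simp only [idx, refl_apply, hne, if_false, if_true]
  have : -h * x i1 = h * - x i1 := by ring
  rw [this]

theorem atom_neg (i0 i1 : Fin d) (hne : i0 ≠ i1) (h : ℝ) (j : Fin 3) :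
    atom i0 i1 (-h) j = refl i1 (atom i0 i1 h j) := by
  ext i
  rw [refl_apply]
  fin_cases j
  · by_cases hi : i = i1
    · subst hi; simp [atom, hne.symm]
    · simp [atom, hi]
  · by_cases hi : i = i1
    · subst hi; simp [atom]
    · simp [atom, hi]
  · by_cases hi : i = i1
    · subst hi; simp [atom, hne.symm]
    · simp [atom, hi]

theorem T0_neg (i0 i1 : Fin d) (hne : i0 ≠ i1) (h : ℝ) :
    T0 i0 i1 (-h) = (refl i1) ∘ (T0 i0 i1 h) ∘ (refl i1) := by
  funext x
  simp only [T0, Function.comp_apply, idx_neg i0 i1 hne, atom_neg i0 i1 hne]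

theorem measurable_refl (i1 : Fin d) : Measurable (refl i1 : E → E) :=
  (refl i1).continuous.measurable

theorem map_T0_neg (i0 i1 : Fin d) (hne : i0 ≠ i1) (h : ℝ) :
    (ρ).map (T0 i0 i1 (-h)) = (ρ).map ((refl i1) ∘ (T0 i0 i1 h)) := by
  rw [T0_neg i0 i1 hne h, ← Function.comp_assoc,
    ← Measure.map_map ((measurable_refl i1).comp (measurable_T0 i0 i1 h)) (measurable_refl i1),
    map_refl]

/-- the coupling -/
noncomputable def coup (i0 i1 : Fin d) (h : ℝ) : Measure (E × E) :=
  (ρ).map (fun x => (T0 i0 i1 h x, refl i1 (T0 i0 i1 h x)))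

theorem measurable_coupMap (i0 i1 : Fin d) (h : ℝ) :
    Measurable (fun x : E => (T0 i0 i1 h x, refl i1 (T0 i0 i1 h x))) :=
  (measurable_T0 i0 i1 h).prodMk ((measurable_refl i1).comp (measurable_T0 i0 i1 h))

theorem isPairCoupling_coup (i0 i1 : Fin d) (hne : i0 ≠ i1) (h : ℝ) :
    IsPairCoupling ((ρ).map (T0 i0 i1 h)) ((ρ).map (T0 i0 i1 (-h))) (coup i0 i1 h) := by
  constructor
  · rw [coup, Measure.map_map measurable_fst (measurable_coupMap i0 i1 h)]
    rfl
  · rw [coup, Measure.map_map measurable_snd (measurable_coupMap i0 i1 h), map_T0_neg i0 i1 hne]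
    rfl

theorem quadCost_coup_le (i0 i1 : Fin d) (hne : i0 ≠ i1) (h : ℝ) (hpos : 0 < h) (hh : h ≤ 1) :
    quadCost (coup i0 i1 h) ≤ ENNReal.ofReal (4 * h ^ 3) := by
  have hmB : MeasurableSet (box2 i0 i1 (-h) h (-1) 1) :=
    measurableSet_box2 i0 i1 hne _ _ _ _ (by linarith) hh (by norm_num) (by norm_num)
  rw [quadCost, coup, lintegral_map (by fun_prop) (measurable_coupMap i0 i1 h)]
  calc ∫⁻ x, ‖T0 i0 i1 h x - refl i1 (T0 i0 i1 h x)‖ₑ ^ 2 ∂ρ
      ≤ ∫⁻ x, (box2 i0 i1 (-h) h (-1) 1).indicator (fun _ => ENNReal.ofReal (4 * h ^ 2)) x ∂ρ := by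
        apply lintegral_mono_ae
        filter_upwards [ae_mem_cube] with x hx
        rw [T0, ← atom_neg i0 i1 hne]
        by_cases h1 : |x i0| ≤ h * x i1
        · have hidx : idx i0 i1 h x = 1 := by simp [idx, h1]
          have hmem : x ∈ box2 i0 i1 (-h) h (-1) 1 := by
            have h2 := mul_le_abs_of_mem_cube h x hx i1
            rw [abs_of_pos hpos] at h2
            have h3 := abs_le.1 (le_trans h1 h2)
            have h4 := abs_le.1 (hx i1)
            exact ⟨hx, h3.1, h3.2, h4.1, h4.2⟩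
          rw [Set.indicator_of_mem hmem, hidx]
          have : atom i0 i1 h 1 - atom i0 i1 (-h) 1 = (2 * h) • ee i1 := by
            simp only [atom, Matrix.cons_val_one, Matrix.cons_val_zero]
            rw [← sub_smul]; congr 1; ring
          rw [this, ← ofReal_norm, ← ENNReal.ofReal_pow (norm_nonneg _)]
          apply ENNReal.ofReal_le_ofReal
          rw [norm_smul]
          simp only [ee, PiLp.norm_single, norm_one, mul_one, Real.norm_eq_abs, sq_abs]
          apply le_of_eq; ring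
        · have : atom i0 i1 h (idx i0 i1 h x) - atom i0 i1 (-h) (idx i0 i1 h x) = 0 := by
            by_cases h2 : x i0 < 0
            · simp [idx, h1, h2, atom]
            · simp [idx, h1, h2, atom]
          rw [this]; simp
    _ = ENNReal.ofReal (4 * h ^ 2) * ρ (box2 i0 i1 (-h) h (-1) 1) := by
        rw [lintegral_indicator hmB, setLIntegral_const]
    _ = ENNReal.ofReal (4 * h ^ 3) := by
        rw [rho_box2 i0 i1 hne _ _ _ _ (by linarith) (by linarith) hh (by norm_num) (by norm_num)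
          (by norm_num), ← ENNReal.ofReal_mul (by positivity)]
        congr 1; ring

/-- lower bound for the `L²` distance of any two maps with the rigidity property -/
theorem dist_lower (i0 i1 : Fin d) (hne : i0 ≠ i1) (h : ℝ) (hpos : 0 < h) (hh : h ≤ 1)
    (Tμ Tν : E → E)
    (hμ : ∀ᵐ x ∂ρ, Tμ x ∈ Set.range (atom i0 i1 h) ∧ inner ℝ x (Tμ x) = pot i0 i1 h x)
    (hν : ∀ᵐ x ∂ρ, Tν x ∈ Set.range (atom i0 i1 (-h)) ∧ inner ℝ x (Tν x) = pot i0 i1 (-h) x) :
    ENNReal.ofReal (h / 16) ≤ ∫⁻ x, ‖Tμ x - Tν x‖ₑ ^ 2 ∂ρ := by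
  have hmB : MeasurableSet (box2 i0 i1 (-h / 4) (h / 4) (1 / 2) 1) :=
    measurableSet_box2 i0 i1 hne _ _ _ _ (by linarith) (by linarith) (by norm_num) (by norm_num)
  calc ENNReal.ofReal (h / 16) = ρ (box2 i0 i1 (-h / 4) (h / 4) (1 / 2) 1) := by
        rw [rho_box2 i0 i1 hne _ _ _ _ (by linarith) (by linarith) (by linarith) (by norm_num)
          (by norm_num) (by norm_num)]
        congr 1; ring
    _ = ∫⁻ x, (box2 i0 i1 (-h / 4) (h / 4) (1 / 2) 1).indicator (fun _ => (1 : ℝ≥0∞)) x ∂ρ := by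
        rw [lintegral_indicator hmB, setLIntegral_const, one_mul]
    _ ≤ ∫⁻ x, ‖Tμ x - Tν x‖ₑ ^ 2 ∂ρ := by
        apply lintegral_mono_ae
        filter_upwards [hμ, hν] with x hxμ hxν
        by_cases hmem : x ∈ box2 i0 i1 (-h / 4) (h / 4) (1 / 2) 1
        · rw [Set.indicator_of_mem hmem]
          obtain ⟨hK, h1, h2, h3, h4⟩ := hmem
          obtain ⟨⟨j, hj⟩, hjp⟩ := hxμ
          obtain ⟨⟨k, hk⟩, hkp⟩ := hxν
          have habs : |x i0| ≤ h / 4 := abs_le.2 ⟨by linarith, h2⟩
          have hhx : h / 2 ≤ h * x i1 := by nlinarith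
          -- `Tμ x` is the middle atom
          have hj1 : j = 1 := by
            rw [← hj, inner_atom, pot, max_eq_right (by linarith)] at hjp
            have := abs_le.1 habs
            fin_cases j
            · exfalso; simp at hjp; linarith
            · rfl
            · exfalso; simp at hjp; linarith
          -- `Tν x` is not the middle atom
          have hk1 : k ≠ 1 := by
            rintro rfl
            rw [← hk, inner_atom, pot] at hkp
            have h5 : (0 : ℝ) ≤ max |x i0| (-h * x i1) := le_max_of_le_left (abs_nonneg _)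
            rw [← hkp] at h5
            simp at h5
            nlinarith
          have hcoord : |(Tμ x - Tν x) i0| = 1 := by
            rw [← hj, ← hk, hj1]
            fin_cases k
            · simp [atom, hne]
            · exact absurd rfl hk1
            · simp [atom, hne]
          have hnorm : 1 ≤ ‖Tμ x - Tν x‖ := by
            calc (1 : ℝ) = ‖(Tμ x - Tν x) i0‖ := by rw [Real.norm_eq_abs, hcoord]
              _ ≤ ‖Tμ x - Tν x‖ := PiLp.norm_apply_le _ _
          rw [← ofReal_norm, ← ENNReal.ofReal_pow (norm_nonneg _)]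
          rw [← ENNReal.ofReal_one]
          apply ENNReal.ofReal_le_ofReal
          exact one_le_pow₀ hnorm
        · rw [Set.indicator_of_notMem hmem]; exact zero_le

end Crest.Agent.S0110Aux
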