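import Mathlib

/-!
# S0110 helper: choice of the small parameter
-/

set_option autoImplicit false
open scoped NNReal Topology
open Filter

namespace Crest.Agent.S0110Aux

theorem exists_small (α : ℝ) (hα : 1 / 3 < α) (C : ℝ≥0) :
    ∃ h : ℝ, 0 < h ∧ h ≤ 1 / 4 ∧ (C : ℝ) * (4 * h ^ 3) ^ α < h / 16 := by
  have hr : 0 < 3 * α - 1 := by linarith
  have hcont : Continuous fun h : ℝ => (C : ℝ) * (4 : ℝ) ^ α * h ^ (3 * α - 1) :=
    continuous_const.mul (Real.continuous_rpow_const hr.le)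
  have ht : Tendsto (fun h : ℝ => (C : ℝ) * (4 : ℝ) ^ α * h ^ (3 * α - 1)) (𝓝[>] 0) (𝓝 0) := by
    have := hcont.tendsto 0
    simp only [Real.zero_rpow hr.ne', mul_zero] at this
    exact this.mono_left nhdsWithin_le_nhds
  have h1 : ∀ᶠ h : ℝ in 𝓝[>] 0, (C : ℝ) * (4 : ℝ) ^ α * h ^ (3 * α - 1) < 1 / 16 :=
    ht.eventually (gt_mem_nhds (by norm_num))
  have h2 : ∀ᶠ h : ℝ in 𝓝[>] 0, h ∈ Set.Ioc (0 : ℝ) (1 / 4) :=
    Ioc_mem_nhdsGT (by norm_num)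
  obtain ⟨h, hh1, hh2⟩ := (h1.and h2).exists
  refine ⟨h, hh2.1, hh2.2, ?_⟩
  have hpos := hh2.1
  have e1 : (4 * h ^ 3) ^ α = (4 : ℝ) ^ α * (h * h ^ (3 * α - 1)) := by
    rw [Real.mul_rpow (by norm_num) (by positivity)]
    congr 1
    rw [← Real.rpow_natCast, ← Real.rpow_mul hpos.le]
    nth_rewrite 2 [← Real.rpow_one h]
    rw [← Real.rpow_add hpos]
    congr 1
    push_cast; ring
  rw [e1]
  calc (C : ℝ) * ((4 : ℝ) ^ α * (h * h ^ (3 * α - 1)))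
      = h * ((C : ℝ) * (4 : ℝ) ^ α * h ^ (3 * α - 1)) := by ring
    _ < h * (1 / 16) := by gcongr
    _ = h / 16 := by ring

end Crest.Agent.S0110Aux
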