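import Crest.Prelude.Def_QuadraticTransport

/-!
# S0110 helper: the uniform measure on the cube `[-1,1]^d`, boxes, reflection
-/

set_option autoImplicit false
open MeasureTheory
open scoped ENNReal NNReal
open Crest.AnalysisR.OT

namespace Crest.Agent.S0110Aux

variable {d : ℕ}

local notation "E" => EuclideanSpace ℝ (Fin d)

/-- the cube -/
abbrev cube (d : ℕ) : Set (EuclideanSpace ℝ (Fin d)) := {x | ∀ i, |x i| ≤ 1}

/-- closed boxes -/
def box (a b : Fin d → ℝ) : Set E := {x | ∀ i, a i ≤ x i ∧ x i ≤ b i}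

theorem box_eq_preimage (a b : Fin d → ℝ) :
    box a b = (WithLp.ofLp : E → (Fin d → ℝ)) ⁻¹' (Set.Icc a b) := by
  ext x
  simp only [box, Set.mem_ofPred_eq, Set.mem_preimage, Set.mem_Icc, Pi.le_def]
  exact forall_and

theorem measurableSet_box (a b : Fin d → ℝ) : MeasurableSet (box a b) := by
  rw [box_eq_preimage]
  exact (PiLp.volume_preserving_ofLp (Fin d)).measurable measurableSet_Icc

theorem volume_box (a b : Fin d → ℝ) :
    volume (box a b) = ∏ i, ENNReal.ofReal (b i - a i) := by
  rw [box_eq_preimage,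
    (PiLp.volume_preserving_ofLp (Fin d)).measure_preimage measurableSet_Icc.nullMeasurableSet,
    Real.volume_Icc_pi]

theorem cube_eq_box : cube d = box (fun _ => (-1 : ℝ)) (fun _ => 1) := by
  ext x
  simp only [box, Set.mem_ofPred_eq, abs_le]

theorem measurableSet_cube : MeasurableSet (cube d) := by
  rw [cube_eq_box]; exact measurableSet_box _ _

theorem volume_cube : volume (cube d) = ENNReal.ofReal (2 ^ d) := by
  rw [cube_eq_box, volume_box]
  simp only [sub_neg_eq_add, Finset.prod_const, Finset.card_univ, Fintype.card_fin]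
  rw [← ENNReal.ofReal_pow (by norm_num)]
  norm_num

instance : IsProbabilityMeasure (uniformProbOn (cube d)) := by
  constructor
  rw [uniformProbOn, Measure.smul_apply, Measure.restrict_apply MeasurableSet.univ, Set.univ_inter,
    volume_cube, smul_eq_mul]
  apply ENNReal.inv_mul_cancel
  · simp
  · exact ENNReal.ofReal_ne_top

theorem ae_mem_cube : ∀ᵐ x ∂(uniformProbOn (cube d)), x ∈ cube d := by
  rw [uniformProbOn]
  apply Measure.ae_smul_measure
  exact ae_restrict_mem measurableSet_cube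

theorem rho_box (a b : Fin d → ℝ) (ha : ∀ i, -1 ≤ a i) (hab : ∀ i, a i ≤ b i)
    (hb : ∀ i, b i ≤ 1) :
    uniformProbOn (cube d) (box a b) = ENNReal.ofReal (∏ i, (b i - a i) / 2) := by
  have hsub : box a b ⊆ cube d := by
    intro x hx i
    rw [abs_le]
    exact ⟨le_trans (ha i) (hx i).1, le_trans (hx i).2 (hb i)⟩
  rw [uniformProbOn, Measure.smul_apply, Measure.restrict_apply (measurableSet_box a b),
    Set.inter_eq_left.2 hsub, volume_cube, volume_box, smul_eq_mul,
    ← ENNReal.ofReal_prod_of_nonneg (fun i _ => sub_nonneg.2 (hab i)),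
    ← ENNReal.ofReal_inv_of_pos (by positivity), ← ENNReal.ofReal_mul (by positivity)]
  congr 1
  rw [Finset.prod_div_distrib, Finset.prod_const, Finset.card_univ, Fintype.card_fin]
  field_simp

/-- boxes constrained in two coordinates only -/
def box2 (i0 i1 : Fin d) (a0 b0 a1 b1 : ℝ) : Set E :=
  {x | (∀ i, |x i| ≤ 1) ∧ a0 ≤ x i0 ∧ x i0 ≤ b0 ∧ a1 ≤ x i1 ∧ x i1 ≤ b1}

theorem box2_eq_box (i0 i1 : Fin d) (hne : i0 ≠ i1) (a0 b0 a1 b1 : ℝ)
    (ha0 : -1 ≤ a0) (hb0 : b0 ≤ 1) (ha1 : -1 ≤ a1) (hb1 : b1 ≤ 1) :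
    box2 i0 i1 a0 b0 a1 b1 =
      box (fun i => if i = i0 then a0 else if i = i1 then a1 else -1)
        (fun i => if i = i0 then b0 else if i = i1 then b1 else 1) := by
  ext x
  simp only [box2, box, Set.mem_ofPred_eq]
  constructor
  · rintro ⟨hK, h1, h2, h3, h4⟩ i
    by_cases hi0 : i = i0
    · subst hi0; simp [h1, h2]
    · by_cases hi1 : i = i1
      · subst hi1; simp [hi0, h3, h4]
      · simp only [hi0, hi1, if_false]
        exact abs_le.1 (hK i)
  · intro h
    have h0 := h i0
    have h1 := h i1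
    simp only [if_true] at h0
    simp only [hne.symm, if_false, if_true] at h1
    refine ⟨fun i => ?_, h0.1, h0.2, h1.1, h1.2⟩
    have hi := h i
    rw [abs_le]
    by_cases hi0 : i = i0
    · subst hi0
      exact ⟨le_trans ha0 h0.1, le_trans h0.2 hb0⟩
    · by_cases hi1 : i = i1
      · subst hi1
        exact ⟨le_trans ha1 h1.1, le_trans h1.2 hb1⟩
      · simpa only [hi0, hi1, if_false] using hi

theorem measurableSet_box2 (i0 i1 : Fin d) (hne : i0 ≠ i1) (a0 b0 a1 b1 : ℝ)
    (ha0 : -1 ≤ a0) (hb0 : b0 ≤ 1) (ha1 : -1 ≤ a1) (hb1 : b1 ≤ 1) :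
    MeasurableSet (box2 i0 i1 a0 b0 a1 b1) := by
  rw [box2_eq_box i0 i1 hne a0 b0 a1 b1 ha0 hb0 ha1 hb1]
  exact measurableSet_box _ _

theorem rho_box2 (i0 i1 : Fin d) (hne : i0 ≠ i1) (a0 b0 a1 b1 : ℝ)
    (ha0 : -1 ≤ a0) (hab0 : a0 ≤ b0) (hb0 : b0 ≤ 1) (ha1 : -1 ≤ a1) (hab1 : a1 ≤ b1)
    (hb1 : b1 ≤ 1) :
    uniformProbOn (cube d) (box2 i0 i1 a0 b0 a1 b1) =
      ENNReal.ofReal ((b0 - a0) / 2 * ((b1 - a1) / 2)) := by
  rw [box2_eq_box i0 i1 hne a0 b0 a1 b1 ha0 hb0 ha1 hb1, rho_box]
  · congr 1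
    rw [Finset.prod_eq_mul i0 i1 hne]
    · simp [hne.symm]
    · intro c _ hc
      simp only [hc.1, hc.2, if_false]
      norm_num
    · intro h; exact absurd (Finset.mem_univ _) h
    · intro h; exact absurd (Finset.mem_univ _) h
  · intro i; split_ifs <;> first | assumption | exact le_refl _
  · intro i; split_ifs <;> first | assumption | norm_num
  · intro i; split_ifs <;> first | assumption | exact le_refl _

/-- reflection in the coordinate `i1` -/
noncomputable def refl (i1 : Fin d) : E ≃ₗᵢ[ℝ] E :=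
  LinearIsometryEquiv.piLpCongrRight 2
    (fun i => if i = i1 then LinearIsometryEquiv.neg ℝ else LinearIsometryEquiv.refl ℝ ℝ)

theorem refl_apply (i1 : Fin d) (x : E) (i : Fin d) :
    refl i1 x i = if i = i1 then - x i else x i := by
  simp only [refl, LinearIsometryEquiv.piLpCongrRight_apply]
  split_ifs <;> simp

theorem refl_refl (i1 : Fin d) (x : E) : refl i1 (refl i1 x) = x := by
  ext i
  rw [refl_apply, refl_apply]
  split_ifs <;> simp

theorem refl_preimage_cube (i1 : Fin d) : (refl i1) ⁻¹' (cube d) = cube d := by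
  ext x
  simp only [Set.mem_preimage, Set.mem_ofPred_eq, refl_apply]
  constructor
  · intro h i
    have := h i
    split_ifs at this
    · simpa using this
    · exact this
  · intro h i
    split_ifs
    · simpa using h i
    · exact h i

theorem map_refl (i1 : Fin d) :
    (uniformProbOn (cube d)).map (refl i1) = uniformProbOn (cube d) := by
  have h1 : MeasurePreserving (refl i1) (volume : Measure E) volume :=
    (refl i1).measurePreserving
  have h2 := h1.restrict_preimage (measurableSet_cube (d := d))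
  rw [refl_preimage_cube] at h2
  rw [uniformProbOn, Measure.map_smul, h2.map_eq]

end Crest.Agent.S0110Aux
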