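import Crest.Prelude.Def_QuadraticTransport

/-!
# S0110 helper: a sufficient condition for optimality (Kantorovich duality, easy direction)
-/

set_option autoImplicit false
open MeasureTheory
open scoped ENNReal NNReal
open Crest.AnalysisR.OT

namespace Crest.Agent.S0110Aux

variable {d : ℕ}

local notation "E" => EuclideanSpace ℝ (Fin d)

/-- pointwise identity behind the duality argument -/
theorem key_identity (R : ℝ) (x z : E) (fx : ℝ) (_hx : ‖x‖ ≤ R) (hfx : fx ≤ R ^ 2)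
    (hz : inner ℝ x z ≤ fx) :
    ‖x - z‖ₑ ^ 2 + ENNReal.ofReal (2 * R ^ 2) =
      ENNReal.ofReal (‖x‖ ^ 2 + 2 * R ^ 2 - 2 * fx) + ‖z‖ₑ ^ 2
        + ENNReal.ofReal (2 * (fx - inner ℝ x z)) := by
  have h1 : ‖x - z‖ₑ ^ 2 = ENNReal.ofReal (‖x - z‖ ^ 2) := by
    rw [← ofReal_norm, ENNReal.ofReal_pow (norm_nonneg _)]
  have h2 : ‖z‖ₑ ^ 2 = ENNReal.ofReal (‖z‖ ^ 2) := by
    rw [← ofReal_norm, ENNReal.ofReal_pow (norm_nonneg _)]
  rw [h1, h2, ← ENNReal.ofReal_add (by positivity) (by positivity),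
    ← ENNReal.ofReal_add (by nlinarith [sq_nonneg ‖x‖]) (by positivity),
    ← ENNReal.ofReal_add (by nlinarith [sq_nonneg ‖x‖, sq_nonneg ‖z‖]) (by linarith)]
  congr 1
  rw [norm_sub_sq_real]
  ring

theorem duality {ρ : Measure E} [IsProbabilityMeasure ρ] (R : ℝ) (hρ : ∀ᵐ x ∂ρ, ‖x‖ ≤ R)
    (f : E → ℝ) (Ys : Set E) (hYs : MeasurableSet Ys) (hYb : ∀ z ∈ Ys, ‖z‖ ≤ R)
    (hf : ∀ x, ∀ z ∈ Ys, inner ℝ x z ≤ f x)
    (T₀ : E → E) (hT₀ : Measurable T₀) (hT₀Y : ∀ x, T₀ x ∈ Ys)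
    (hT₀f : ∀ x, inner ℝ x (T₀ x) = f x) :
    IsOptimalMap ρ (ρ.map T₀) T₀ ∧
      ∀ T, IsOptimalMap ρ (ρ.map T₀) T → ∀ᵐ x ∂ρ, T x ∈ Ys ∧ inner ℝ x (T x) = f x := by
  have hfm : Measurable f := by
    have : f = fun x => inner ℝ x (T₀ x) := by
      funext x; exact (hT₀f x).symm
    rw [this]
    exact measurable_id.inner hT₀
  have hfR : ∀ᵐ x ∂ρ, f x ≤ R ^ 2 := by
    filter_upwards [hρ] with x hx
    rw [← hT₀f x]
    calc inner ℝ x (T₀ x) ≤ ‖x‖ * ‖T₀ x‖ := real_inner_le_norm _ _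
      _ ≤ R * R := by
          apply mul_le_mul hx (hYb _ (hT₀Y x)) (norm_nonneg _) (le_trans (norm_nonneg _) hx)
      _ = R ^ 2 := by ring
  -- the constants
  set A : ℝ≥0∞ := ∫⁻ x, ENNReal.ofReal (‖x‖ ^ 2 + 2 * R ^ 2 - 2 * f x) ∂ρ with hA
  set B : ℝ≥0∞ := ∫⁻ z, ‖z‖ₑ ^ 2 ∂(ρ.map T₀) with hB
  set c : ℝ≥0∞ := ENNReal.ofReal (2 * R ^ 2) with hc
  have hcfin : c ≠ ∞ := ENNReal.ofReal_ne_top
  -- general formula
  have hgen : ∀ S : E → E, Measurable S → ρ.map S = ρ.map T₀ →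
      (∀ᵐ x ∂ρ, S x ∈ Ys) ∧
      (∫⁻ x, ‖x - S x‖ₑ ^ 2 ∂ρ) + c =
        A + B + ∫⁻ x, ENNReal.ofReal (2 * (f x - inner ℝ x (S x))) ∂ρ := by
    intro S hS hSm
    have hSY : ∀ᵐ x ∂ρ, S x ∈ Ys := by
      have h0 : (ρ.map T₀) Ysᶜ = 0 := by
        rw [Measure.map_apply hT₀ hYs.compl]
        have : T₀ ⁻¹' Ysᶜ = ∅ := by
          ext x; simp [hT₀Y x]
        rw [this]; simp
      rw [← hSm, Measure.map_apply hS hYs.compl] at h0
      rw [ae_iff]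
      exact h0
    refine ⟨hSY, ?_⟩
    have hBS : B = ∫⁻ x, ‖S x‖ₑ ^ 2 ∂ρ := by
      rw [hB, ← hSm, lintegral_map (by fun_prop) hS]
    have hm1 : Measurable fun x : E => ENNReal.ofReal (‖x‖ ^ 2 + 2 * R ^ 2 - 2 * f x) := by
      fun_prop
    have hm2 : Measurable fun x : E => ‖S x‖ₑ ^ 2 := by fun_prop
    have hm3 : Measurable fun x : E => ‖x - S x‖ₑ ^ 2 := by fun_prop
    calc (∫⁻ x, ‖x - S x‖ₑ ^ 2 ∂ρ) + c
        = ∫⁻ x, (‖x - S x‖ₑ ^ 2 + c) ∂ρ := by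
          rw [lintegral_add_left hm3, lintegral_const, measure_univ, mul_one]
      _ = ∫⁻ x, (ENNReal.ofReal (‖x‖ ^ 2 + 2 * R ^ 2 - 2 * f x) + ‖S x‖ₑ ^ 2
            + ENNReal.ofReal (2 * (f x - inner ℝ x (S x)))) ∂ρ := by
          apply lintegral_congr_ae
          filter_upwards [hρ, hfR, hSY] with x hx hfx hSx
          exact key_identity R x (S x) (f x) hx hfx (hf x _ hSx)
      _ = A + B + ∫⁻ x, ENNReal.ofReal (2 * (f x - inner ℝ x (S x))) ∂ρ := by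
          have hm12 : Measurable fun x : E =>
              ENNReal.ofReal (‖x‖ ^ 2 + 2 * R ^ 2 - 2 * f x) + ‖S x‖ₑ ^ 2 := hm1.add hm2
          rw [lintegral_add_left hm12, lintegral_add_left hm1, hBS]
  have hT₀gen := (hgen T₀ hT₀ rfl).2
  have hzero : ∫⁻ x, ENNReal.ofReal (2 * (f x - inner ℝ x (T₀ x))) ∂ρ = 0 := by
    simp [hT₀f]
  rw [hzero, add_zero] at hT₀gen
  have hcost_fin : (∫⁻ x, ‖x - T₀ x‖ₑ ^ 2 ∂ρ) ≠ ∞ := by
    have : (∫⁻ x, ‖x - T₀ x‖ₑ ^ 2 ∂ρ) ≤ ∫⁻ x, ENNReal.ofReal ((2 * R) ^ 2) ∂ρ := by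
      apply lintegral_mono_ae
      filter_upwards [hρ] with x hx
      rw [← ofReal_norm, ← ENNReal.ofReal_pow (norm_nonneg _)]
      apply ENNReal.ofReal_le_ofReal
      have h1 : ‖x - T₀ x‖ ≤ 2 * R := by
        calc ‖x - T₀ x‖ ≤ ‖x‖ + ‖T₀ x‖ := norm_sub_le _ _
          _ ≤ R + R := add_le_add hx (hYb _ (hT₀Y x))
          _ = 2 * R := by ring
      exact pow_le_pow_left₀ (norm_nonneg _) h1 2
    refine ne_top_of_le_ne_top ?_ this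
    rw [lintegral_const, measure_univ, mul_one]
    exact ENNReal.ofReal_ne_top
  constructor
  · refine ⟨hT₀, rfl, ?_⟩
    intro S hS hSm
    have h := (hgen S hS hSm).2
    rw [← hT₀gen] at h
    have : (∫⁻ x, ‖x - T₀ x‖ₑ ^ 2 ∂ρ) + c ≤ (∫⁻ x, ‖x - S x‖ₑ ^ 2 ∂ρ) + c := by
      rw [h]; exact le_self_add
    exact (ENNReal.add_le_add_iff_right hcfin).1 this
  · intro T hT
    obtain ⟨hTm, hTmap, hTopt⟩ := hT
    obtain ⟨hTY, h⟩ := hgen T hTm hTmap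
    rw [← hT₀gen] at h
    have hle := hTopt T₀ hT₀ rfl
    have hG : ∫⁻ x, ENNReal.ofReal (2 * (f x - inner ℝ x (T x))) ∂ρ = 0 := by
      by_contra hne
      have hpos : 0 < ∫⁻ x, ENNReal.ofReal (2 * (f x - inner ℝ x (T x))) ∂ρ :=
        pos_iff_ne_zero.2 hne
      have hfin : (∫⁻ x, ‖x - T₀ x‖ₑ ^ 2 ∂ρ) + c ≠ ∞ := ENNReal.add_ne_top.2 ⟨hcost_fin, hcfin⟩
      have h1 : (∫⁻ x, ‖x - T₀ x‖ₑ ^ 2 ∂ρ) + c <
          (∫⁻ x, ‖x - T₀ x‖ₑ ^ 2 ∂ρ) + c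
            + ∫⁻ x, ENNReal.ofReal (2 * (f x - inner ℝ x (T x))) ∂ρ :=
        ENNReal.lt_add_right hfin hne
      rw [← h] at h1
      have h2 : (∫⁻ x, ‖x - T x‖ₑ ^ 2 ∂ρ) + c ≤ (∫⁻ x, ‖x - T₀ x‖ₑ ^ 2 ∂ρ) + c := by
        gcongr
      exact absurd h1 (not_lt.2 h2)
    have hmeas : Measurable fun x : E => ENNReal.ofReal (2 * (f x - inner ℝ x (T x))) := by
      have : Measurable fun x : E => (inner ℝ x (T x) : ℝ) := measurable_id.inner hTm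
      fun_prop
    rw [lintegral_eq_zero_iff hmeas] at hG
    filter_upwards [hG, hTY] with x hx hxY
    refine ⟨hxY, ?_⟩
    have h3 : f x ≤ inner ℝ x (T x) := by
      simpa using hx
    have h4 := hf x _ hxY
    linarith

end Crest.Agent.S0110Aux
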