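import Crest.Agent.S0110Aux.Duality
import Crest.Agent.S0110Aux.Cube

/-!
# S0110 helper: the three-atom example
-/

set_option autoImplicit false
open MeasureTheory
open scoped ENNReal NNReal
open Crest.AnalysisR.OT

namespace Crest.Agent.S0110Aux

variable {d : ℕ}

local notation "E" => EuclideanSpace ℝ (Fin d)
local notation "ρ" => uniformProbOn (cube d)

/-- basis vector -/
noncomputable abbrev ee (i : Fin d) : E := EuclideanSpace.single i (1 : ℝ)

/-- the three atoms -/
noncomputable def atom (i0 i1 : Fin d) (h : ℝ) : Fin 3 → E :=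
  ![- ee i0, h • ee i1, ee i0]

/-- index of the Laguerre cell -/
noncomputable def idx (i0 i1 : Fin d) (h : ℝ) (x : E) : Fin 3 :=
  if |x i0| ≤ h * x i1 then 1 else if x i0 < 0 then 0 else 2

/-- the candidate optimal map -/
noncomputable def T0 (i0 i1 : Fin d) (h : ℝ) (x : E) : E := atom i0 i1 h (idx i0 i1 h x)

/-- the potential -/
noncomputable def pot (i0 i1 : Fin d) (h : ℝ) (x : E) : ℝ := max |x i0| (h * x i1)

theorem inner_ee (x : E) (i : Fin d) : inner ℝ x (ee i) = x i := by
  simp [ee, EuclideanSpace.inner_single_right]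

theorem inner_atom (i0 i1 : Fin d) (h : ℝ) (x : E) (j : Fin 3) :
    inner ℝ x (atom i0 i1 h j) = ![- x i0, h * x i1, x i0] j := by
  fin_cases j
  · simp [atom, inner_neg_right, inner_ee]
  · simp [atom, inner_smul_right, inner_ee]
  · simp [atom, inner_ee]

theorem measurable_idx (i0 i1 : Fin d) (h : ℝ) : Measurable (idx i0 i1 h) := by
  unfold idx
  have m0 : Measurable fun x : E => x i0 := by fun_prop
  have m1 : Measurable fun x : E => x i1 := by fun_prop
  refine Measurable.ite ?_ measurable_const (Measurable.ite ?_ measurable_const measurable_const)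
  · exact measurableSet_le (by fun_prop) (by fun_prop)
  · exact measurableSet_lt m0 measurable_const

theorem measurable_T0 (i0 i1 : Fin d) (h : ℝ) : Measurable (T0 i0 i1 h) :=
  (measurable_of_finite (atom i0 i1 h)).comp (measurable_idx i0 i1 h)

theorem inner_T0 (i0 i1 : Fin d) (h : ℝ) (x : E) :
    inner ℝ x (T0 i0 i1 h x) = pot i0 i1 h x := by
  rw [T0, inner_atom, idx, pot]
  split_ifs with h1 h2
  · simp [max_eq_right h1]
  · rw [not_le] at h1
    rw [max_eq_left h1.le, abs_of_neg h2]
    simp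
  · rw [not_le] at h1
    rw [not_lt] at h2
    rw [max_eq_left h1.le, abs_of_nonneg h2]
    simp

theorem inner_atom_le (i0 i1 : Fin d) (h : ℝ) (x : E) (j : Fin 3) :
    inner ℝ x (atom i0 i1 h j) ≤ pot i0 i1 h x := by
  rw [inner_atom, pot]
  fin_cases j
  · exact le_max_of_le_left (neg_le_abs _)
  · exact le_max_right _ _
  · exact le_max_of_le_left (le_abs_self _)

theorem norm_atom_le (i0 i1 : Fin d) (h : ℝ) (hh : |h| ≤ 1) (j : Fin 3) :
    ‖atom i0 i1 h j‖ ≤ 1 := by
  fin_cases j
  · simp [atom]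
  · simpa [atom, norm_smul] using hh
  · simp [atom]

theorem norm_le_of_mem_cube (x : E) (hx : x ∈ cube d) : ‖x‖ ≤ Real.sqrt d := by
  rw [EuclideanSpace.norm_eq]
  apply Real.sqrt_le_sqrt
  calc ∑ i, ‖x i‖ ^ 2 ≤ ∑ _i : Fin d, (1 : ℝ) := by
        apply Finset.sum_le_sum
        intro i _
        have := hx i
        rw [Real.norm_eq_abs]
        exact pow_le_one₀ (abs_nonneg _) this
    _ = d := by simp

/-- optimality and rigidity -/
theorem T0_optimal (i0 i1 : Fin d) (h : ℝ) (hh : |h| ≤ 1) :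
    IsOptimalMap ρ ((ρ).map (T0 i0 i1 h)) (T0 i0 i1 h) ∧
      ∀ T, IsOptimalMap ρ ((ρ).map (T0 i0 i1 h)) T →
        ∀ᵐ x ∂ρ, T x ∈ Set.range (atom i0 i1 h) ∧ inner ℝ x (T x) = pot i0 i1 h x := by
  apply duality (max 1 (Real.sqrt d))
  · filter_upwards [ae_mem_cube] with x hx
    exact le_max_of_le_right (norm_le_of_mem_cube x hx)
  · exact (Set.finite_range _).measurableSet
  · rintro z ⟨j, rfl⟩
    exact le_max_of_le_left (norm_atom_le i0 i1 h hh j)
  · rintro x z ⟨j, rfl⟩
    exact inner_atom_le i0 i1 h x j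
  · exact measurable_T0 i0 i1 h
  · intro x; exact ⟨_, rfl⟩
  · exact inner_T0 i0 i1 h

theorem atom_mem_cube (i0 i1 : Fin d) (h : ℝ) (hh : |h| ≤ 1) (j : Fin 3) :
    atom i0 i1 h j ∈ cube d := by
  intro i
  calc |atom i0 i1 h j i| = ‖atom i0 i1 h j i‖ := (Real.norm_eq_abs _).symm
    _ ≤ ‖atom i0 i1 h j‖ := PiLp.norm_apply_le _ _
    _ ≤ 1 := norm_atom_le i0 i1 h hh j

theorem isProbabilityOn_map (i0 i1 : Fin d) (h : ℝ) (hh : |h| ≤ 1) :
    IsProbabilityOn (cube d) ((ρ).map (T0 i0 i1 h)) := by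
  constructor
  · exact Measure.isProbabilityMeasure_map (measurable_T0 i0 i1 h).aemeasurable
  · rw [Measure.map_apply (measurable_T0 i0 i1 h) measurableSet_cube.compl]
    have : T0 i0 i1 h ⁻¹' (cube d)ᶜ = ∅ := by
      ext x
      simp only [Set.mem_preimage, Set.mem_compl_iff, Set.mem_empty_iff_false, iff_false, not_not]
      exact atom_mem_cube i0 i1 h hh _
    rw [this]; simp

theorem atom_injective (i0 i1 : Fin d) (hne : i0 ≠ i1) (h : ℝ) :
    Function.Injective (atom i0 i1 h) := by
  have key : ∀ j, atom i0 i1 h j i0 = ![(-1 : ℝ), 0, 1] j := by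
    intro j
    fin_cases j
    · simp [atom]
    · simp [atom, hne]
    · simp [atom]
  intro j k hjk
  have := congrArg (fun v : E => v i0) hjk
  simp only [key] at this
  fin_cases j <;> fin_cases k <;> first | rfl | (exfalso; norm_num at this)

/-- the pushforward as a sum of Dirac masses -/
theorem map_T0_eq (i0 i1 : Fin d) (h : ℝ) :
    (ρ).map (T0 i0 i1 h) =
      ∑ j, ENNReal.ofReal ((ρ (idx i0 i1 h ⁻¹' {j})).toReal) • Measure.dirac (atom i0 i1 h j) := by
  have h1 : (ρ).map (T0 i0 i1 h) = ((ρ).map (idx i0 i1 h)).map (atom i0 i1 h) := by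
    rw [Measure.map_map (measurable_of_finite _) (measurable_idx i0 i1 h)]
    rfl
  have h2 : (ρ).map (idx i0 i1 h) =
      ∑ j, ((ρ).map (idx i0 i1 h)) {j} • Measure.dirac j := by
    conv_lhs => rw [← Measure.sum_smul_dirac ((ρ).map (idx i0 i1 h))]
    rw [Measure.sum_fintype]
  rw [h1, h2, Measure.map_finset_sum (measurable_of_finite _).aemeasurable]
  apply Finset.sum_congr rfl
  intro j _
  rw [Measure.map_smul, Measure.map_dirac' (measurable_of_finite _),
    Measure.map_apply (measurable_idx i0 i1 h) (measurableSet_singleton j),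
    ENNReal.ofReal_toReal (measure_ne_top _ _)]

end Crest.Agent.S0110Aux
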